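import Vale.Agent.P025.R2.H507.CoreDef

/-!
# P025, G-LA-b: the case `p = 2`, `l = 3` (helper542)
-/

open Polynomial

namespace P025H507

variable {K : Type*} [NormedField K] [IsUltrametricDist K]

section Arith

lemma four_mul_lt_pow (k : ℕ) : 4 * k < 3 * 2 ^ k := by
  induction k with
  | zero => norm_num
  | succ k ih =>
    have h1 : 1 ≤ 2 ^ k := Nat.one_le_pow _ _ (by norm_num)
    rw [pow_succ]
    rcases Nat.lt_or_ge k 1 with h | h
    · have : k = 0 := by omega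
      subst this
      norm_num
    · have h2 : 2 ^ 1 ≤ 2 ^ k := Nat.pow_le_pow_right (by norm_num) h
      omega

lemma val_two_lt {i : ℕ} (hi : i ≠ 0) : 4 * padicValNat 2 i < 3 * i := by
  have h1 : 2 ^ padicValNat 2 i ≤ i := Nat.le_of_dvd (Nat.pos_of_ne_zero hi) pow_padicValNat_dvd
  have := four_mul_lt_pow (padicValNat 2 i)
  omega

lemma val_two_mul_pred {j : ℕ} (hj : 5 ≤ j) : 4 * padicValNat 2 (j * (j - 1)) + 5 < 3 * j := by
  have hf : Fact (Nat.Prime 2) := ⟨Nat.prime_two⟩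
  rw [padicValNat.mul (by omega) (by omega)]
  have key : ∀ k : ℕ, 2 ^ k ≤ j → 4 * k + 5 < 3 * j := by
    intro k hk
    rcases Nat.lt_or_ge k 3 with h | h
    · omega
    · obtain ⟨t, rfl⟩ : ∃ t, k = t + 3 := ⟨k - 3, by omega⟩
      have h2 := four_mul_lt_pow t
      have h3 : 2 ^ (t + 3) = 8 * 2 ^ t := by rw [pow_add]; ring
      have h4 : 1 ≤ 2 ^ t := Nat.one_le_pow _ _ (by norm_num)
      omega
  by_cases hd : 2 ∣ j
  · have h0 : padicValNat 2 (j - 1) = 0 := padicValNat.eq_zero_of_not_dvd (by omega)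
    rw [h0, add_zero]
    exact key _ (Nat.le_of_dvd (by omega) pow_padicValNat_dvd)
  · have h0 : padicValNat 2 j = 0 := padicValNat.eq_zero_of_not_dvd hd
    rw [h0, zero_add]
    have : 2 ^ padicValNat 2 (j - 1) ≤ j - 1 := Nat.le_of_dvd (by omega) pow_padicValNat_dvd
    exact key _ (by omega)

end Arith

/-- the number `(h+1)(h-1)(h/2-1)` for `h = 2 g` -/
def ccG (g : ℕ) : ℕ := (2 * g + 1) * (2 * g - 1) * (g - 1)

theorem exists_mu [IsAlgClosed K] [CharZero K] (hp : ‖(2 : K)‖ < 1) {g : ℕ} (hg : 2 ∣ g)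
    (hg0 : g ≠ 0) :
    ∃ μ : K, 3 * (μ ^ 2 - 2 * (2 * g) * μ + 1) ^ 2 = 16 * (ccG g : K) * μ ∧ ‖μ‖ = 1 ∧
      ‖μ ^ 2 - 2 * (2 * g) * μ + 1‖ = ‖(2 : K)‖ ^ 2 := by
  have hp' : ‖((2 : ℕ) : K)‖ < 1 := by exact_mod_cast hp
  have h3 : ‖(3 : K)‖ = 1 := by
    have := norm_nat_eq_one (K := K) (p := 2) hp' (n := 3) (by norm_num)
    exact_mod_cast this
  have hP0 : 0 < ‖(2 : K)‖ := norm_pos_iff.2 two_ne_zero
  have hcc : ‖(ccG g : K)‖ = 1 := by
    apply norm_nat_eq_one (p := 2) hp'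
    rw [Nat.coprime_comm, Nat.Prime.coprime_iff_not_dvd Nat.prime_two, ccG]
    intro h
    rcases (Nat.Prime.dvd_mul Nat.prime_two).1 h with h | h
    · rcases (Nat.Prime.dvd_mul Nat.prime_two).1 h with h | h
      · omega
      · omega
    · omega
  let f : K[X] := C 3 * (X ^ 2 - C (2 * (2 * g) : K) * X + 1) ^ 2 - C (16 * (ccG g : K)) * X
  have hfdeg : f.natDegree = 4 := by
    have e : f = C 3 * (X ^ 2 - C (2 * (2 * g) : K) * X + 1) ^ 2 - C (16 * (ccG g : K)) * X := rfl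
    rw [e]
    compute_degree!
  have hdeg : f.degree ≠ 0 := by
    intro h
    have h5 : f.degree = ((0 : ℕ) : WithBot ℕ) := h
    have h6 := natDegree_eq_of_degree_eq_some h5
    rw [hfdeg] at h6
    omega
  obtain ⟨μ, hμ⟩ := IsAlgClosed.exists_root f hdeg
  have h1 : 3 * (μ ^ 2 - 2 * (2 * g) * μ + 1) ^ 2 = 16 * (ccG g : K) * μ := by
    have h2 : eval μ f = 0 := hμ
    simp only [f, eval_add, eval_sub, eval_mul, eval_C, eval_pow, eval_X, eval_one] at h2
    linear_combination h2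
  set B : K := μ ^ 2 - 2 * (2 * g) * μ + 1 with hB
  have h16 : ‖(16 : K)‖ = ‖(2 : K)‖ ^ 4 := by
    rw [← norm_pow]; norm_num
  have hnorm : ‖B‖ ^ 2 = ‖(2 : K)‖ ^ 4 * ‖μ‖ := by
    have := congrArg norm h1
    rw [norm_mul, norm_pow, h3, one_mul, norm_mul, norm_mul, hcc, mul_one, h16] at this
    exact this
  have h2g : ‖(2 : K) * (2 * g)‖ ≤ ‖(2 : K)‖ := by
    rw [norm_mul]
    refine mul_le_of_le_one_right (norm_nonneg _) ?_
    have := norm_nat_le_one (K := K) (2 * g)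
    exact_mod_cast this
  have hμ1 : ‖μ‖ = 1 := by
    rcases lt_trichotomy ‖μ‖ 1 with hlt | heq | hgt
    · exfalso
      have hs : ‖μ ^ 2 - 2 * (2 * g) * μ‖ < 1 := by
        refine lt_of_le_of_lt (norm_sub_le_max _ _) (max_lt ?_ ?_)
        · rw [norm_pow]; exact pow_lt_one₀ (norm_nonneg _) hlt (by norm_num)
        · rw [norm_mul]
          calc ‖(2 : K) * (2 * g)‖ * ‖μ‖ ≤ 1 * ‖μ‖ := by
                gcongr
                exact h2g.trans hp.le
            _ < 1 := by rwa [one_mul]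
      have hB1 : ‖B‖ = 1 := by
        rw [hB]
        have h5 : ‖μ ^ 2 - 2 * (2 * g) * μ‖ ≠ ‖(1 : K)‖ := by rw [norm_one]; exact hs.ne
        rw [IsUltrametricDist.norm_add_eq_max_of_norm_ne_norm h5, norm_one]
        exact max_eq_right hs.le
      rw [hB1, one_pow] at hnorm
      have : ‖(2 : K)‖ ^ 4 * ‖μ‖ < 1 := by
        have h7 : ‖(2 : K)‖ ^ 4 < 1 := pow_lt_one₀ hP0.le hp (by norm_num)
        nlinarith [norm_nonneg μ, pow_nonneg hP0.le 4]
      linarith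
    · exact heq
    · exfalso
      have hs : ‖-(2 * (2 * g) * μ) + 1‖ < ‖μ ^ 2‖ := by
        refine lt_of_le_of_lt (IsUltrametricDist.norm_add_le_max _ _) (max_lt ?_ ?_)
        · rw [norm_neg, norm_mul, norm_pow, pow_two]
          have : ‖(2 : K) * (2 * g)‖ < ‖μ‖ := lt_of_le_of_lt h2g (hp.trans hgt)
          exact mul_lt_mul_of_pos_right this (by linarith)
        · rw [norm_one, norm_pow]; exact one_lt_pow₀ hgt (by norm_num)
      have hB1 : ‖B‖ = ‖μ‖ ^ 2 := by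
        have e : B = μ ^ 2 + (-(2 * (2 * g) * μ) + 1) := by rw [hB]; ring
        rw [e, IsUltrametricDist.norm_add_eq_max_of_norm_ne_norm hs.ne', max_eq_left hs.le, norm_pow]
      rw [hB1] at hnorm
      have h8 : ‖μ‖ ^ 1 < (‖μ‖ ^ 2) ^ 2 := by
        rw [← pow_mul]
        exact pow_lt_pow_right₀ hgt (by norm_num)
      have h9 : ‖(2 : K)‖ ^ 4 * ‖μ‖ ≤ ‖μ‖ := by
        refine mul_le_of_le_one_left (norm_nonneg _) ?_
        exact pow_le_one₀ hP0.le hp.le
      rw [pow_one] at h8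
      linarith
  refine ⟨μ, h1, hμ1, ?_⟩
  rw [hμ1, mul_one] at hnorm
  have : ‖B‖ ^ 2 = (‖(2 : K)‖ ^ 2) ^ 2 := by rw [hnorm]; ring
  exact (pow_left_inj₀ (norm_nonneg _) (by positivity) (by norm_num)).1 this

theorem exists_core_two [IsAlgClosed K] [CharZero K] (hp : ‖(2 : K)‖ < 1) {h : ℕ} (hh : h ≠ 0)
    (h4 : 4 ∣ h) : Nonempty (Core K 2 h 3) := by
  have hf : Fact (Nat.Prime 2) := ⟨Nat.prime_two⟩
  have hp' : ‖((2 : ℕ) : K)‖ < 1 := by exact_mod_cast hp
  obtain ⟨g, rfl⟩ : ∃ g, h = 2 * g := ⟨h / 2, by omega⟩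
  have hg : 2 ∣ g := by omega
  have hg0 : g ≠ 0 := by omega
  have hgK : (g : K) ≠ 0 := Nat.cast_ne_zero.2 hg0
  have h2K : (2 : K) ≠ 0 := two_ne_zero
  have hP0 : 0 < ‖(2 : K)‖ := norm_pos_iff.2 h2K
  obtain ⟨μ, hμ, hμ1, hB⟩ := exists_mu (K := K) hp hg hg0
  set P : ℝ := ‖(2 : K)‖ with hPdef
  -- radius
  obtain ⟨ρ, hρ⟩ := IsAlgClosed.exists_pow_nat_eq ((2 : K) ^ 3) (n := 4) (by norm_num)
  have hρn : ‖ρ‖ ^ 4 = P ^ 3 := by
    rw [← norm_pow, hρ, norm_pow]
  have hρ0 : ρ ≠ 0 := by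
    rintro rfl
    rw [zero_pow (by norm_num)] at hρ
    exact pow_ne_zero _ h2K hρ.symm
  have hr0 : 0 < ‖ρ‖ := norm_pos_iff.2 hρ0
  have hr1 : ‖ρ‖ < 1 := by
    by_contra hge
    push Not at hge
    have h1 : 1 ≤ ‖ρ‖ ^ 4 := one_le_pow₀ hge
    rw [hρn] at h1
    have h2 : P ^ 3 < 1 := pow_lt_one₀ hP0.le hp (by norm_num)
    linarith
  -- comparison of powers
  have hcmp : ∀ a b : ℕ, 4 * b < 3 * a → ‖ρ‖ ^ a < P ^ b := by
    intro a b hab
    apply lt_of_pow_lt_pow_left₀ 4 (by positivity)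
    rw [← pow_mul, mul_comm a 4, pow_mul, hρn, ← pow_mul, ← pow_mul]
    exact pow_lt_pow_right_of_lt_one₀ hP0 hp (by omega)
  set κ : K := μ / ((2 * g : ℕ) : K) with hκ
  have hκh : κ * ((2 * g : ℕ) : K) = μ := div_mul_cancel₀ _ (by exact_mod_cast hh)
  have hκ2 : κ * (2 * g) = μ := by
    have := hκh
    push_cast at this
    exact this
  set Bv : K := μ ^ 2 - 2 * (2 * g) * μ + 1 with hBv
  set a1 : K := (1 + μ) / 2 with ha1
  set a2 : K := -Bv / 8 with ha2
  set A : K[X] := 1 + C a1 * X + C a2 * X ^ 2 with hA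
  have hA2 : A ^ 2 = 1 + C (2 * a1) * X + C (a1 ^ 2 + 2 * a2) * X ^ 2 + C (2 * a1 * a2) * X ^ 3 +
      C (a2 ^ 2) * X ^ 4 := by
    rw [hA]
    simp only [map_mul, map_add, map_pow, map_ofNat]
    ring
  -- norms
  have hodd : ∀ n : ℕ, ¬ 2 ∣ n → ‖(n : K)‖ = 1 := by
    intro n hn
    apply norm_nat_eq_one (p := 2) hp'
    rw [Nat.coprime_comm, Nat.Prime.coprime_iff_not_dvd Nat.prime_two]
    exact hn
  have h1μ : ‖1 + μ‖ ^ 2 = P := by
    have e : (1 + μ) ^ 2 = Bv + 2 * (2 * g + 1) * μ := by rw [hBv]; ring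
    have e2 : ‖(2 : K) * (2 * g + 1) * μ‖ = P := by
      have : ‖((2 * g + 1 : ℕ) : K)‖ = 1 := hodd _ (by omega)
      push_cast at this
      rw [norm_mul, norm_mul, this, hμ1, mul_one, mul_one]
    have e3 : ‖Bv‖ < P := by
      rw [hB, pow_two]
      exact mul_lt_of_lt_one_left hP0 hp
    rw [← norm_pow, e, IsUltrametricDist.norm_add_eq_max_of_norm_ne_norm (by rw [e2]; exact e3.ne),
      e2]
    exact max_eq_right e3.le
  have ha1n : ‖a1‖ ^ 2 * P = 1 := by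
    rw [ha1, norm_div, div_pow, h1μ, ← hPdef]
    field_simp
  have ha2n : ‖a2‖ * P = 1 := by
    have h8 : ‖(8 : K)‖ = P ^ 3 := by rw [hPdef, ← norm_pow]; norm_num
    rw [ha2, norm_div, norm_neg, hB, h8]
    field_simp
  -- coefficients of Phi
  have hφ1 : (Phi κ (2 * g)).coeff 1 = 1 + μ := by rw [Phi_coeff_one, hκh]
  have hφ2 : (Phi κ (2 * g)).coeff 2 = μ * (2 * g + 1) / 2 := by
    have := Phi_coeff_mul κ hh (i := 2) le_rfl
    rw [hκh, show (2 : ℕ) * (2 - 1) = 2 by norm_num, show (2 : ℕ) - 2 = 0 by norm_num,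
      Nat.choose_zero_right] at this
    push_cast at this
    field_simp
    linear_combination this
  have hφ3 : (Phi κ (2 * g)).coeff 3 * 6 = μ * ((2 * g + 1 : ℕ) : K) * ((2 * g - 1 : ℕ) : K) := by
    have := Phi_coeff_mul κ hh (i := 3) (by norm_num)
    rw [hκh, show (3 : ℕ) * (3 - 1) = 6 by norm_num, show (3 : ℕ) - 2 = 1 by norm_num,
      Nat.choose_one_right] at this
    exact_mod_cast this
  have hφ4 : (Phi κ (2 * g)).coeff 4 * 12 = μ * (ccG g : K) := by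
    have := Phi_coeff_mul κ hh (i := 4) (by norm_num)
    rw [hκh, show (4 : ℕ) * (4 - 1) = 12 by norm_num, show (4 : ℕ) - 2 = 2 by norm_num] at this
    have e : (2 * g - 1).choose 2 = (2 * g - 1) * (g - 1) := by
      rw [Nat.choose_two_right, show 2 * g - 1 - 1 = (g - 1) * 2 by omega, ← mul_assoc,
        Nat.mul_div_cancel _ (by norm_num)]
    rw [e] at this
    rw [ccG]
    push_cast at this ⊢
    linear_combination this
  set D : K[X] := Phi κ (2 * g) - A ^ 2 with hD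
  have hDc : ∀ i, D.coeff i = (Phi κ (2 * g)).coeff i - (A ^ 2).coeff i := by
    intro i; rw [hD, coeff_sub]
  have hA2c0 : (A ^ 2).coeff 0 = 1 := by rw [hA2]; simp [coeff_one, coeff_X]
  have hA2c1 : (A ^ 2).coeff 1 = 2 * a1 := by
    rw [hA2]
    simp only [coeff_add, coeff_C_mul, coeff_one, coeff_X, coeff_X_pow]
    norm_num
  have hA2c2 : (A ^ 2).coeff 2 = a1 ^ 2 + 2 * a2 := by
    rw [hA2]
    simp only [coeff_add, coeff_C_mul, coeff_one, coeff_X, coeff_X_pow]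
    norm_num
  have hA2c3 : (A ^ 2).coeff 3 = 2 * a1 * a2 := by
    rw [hA2]
    simp only [coeff_add, coeff_C_mul, coeff_one, coeff_X, coeff_X_pow]
    norm_num
  have hA2c4 : (A ^ 2).coeff 4 = a2 ^ 2 := by
    rw [hA2]
    simp only [coeff_add, coeff_C_mul, coeff_one, coeff_X, coeff_X_pow]
    norm_num
  have hA2c5 : ∀ i, 5 ≤ i → (A ^ 2).coeff i = 0 := by
    intro i hi
    rw [hA2]
    simp only [coeff_add, coeff_C_mul, coeff_one, coeff_X, coeff_X_pow]
    rw [if_neg (by omega), if_neg (by omega), if_neg (by omega), if_neg (by omega),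
      if_neg (by omega)]
    simp
  have hD0 : D.coeff 0 = 0 := by rw [hDc, Phi_coeff_zero, hA2c0, sub_self]
  have hD1 : D.coeff 1 = 0 := by
    rw [hDc, hφ1, hA2c1, ha1]; field_simp; ring
  have hD2 : D.coeff 2 = 0 := by
    rw [hDc, hφ2, hA2c2, ha1, ha2, hBv]; field_simp; ring
  have hD4 : D.coeff 4 = 0 := by
    rw [hDc, hA2c4, ha2]
    have h192 : (192 : K) ≠ 0 := by
      have : ((192 : ℕ) : K) ≠ 0 := Nat.cast_ne_zero.2 (by norm_num)
      exact_mod_cast this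
    have h8 : (8 : K) ≠ 0 := by
      have : ((8 : ℕ) : K) ≠ 0 := Nat.cast_ne_zero.2 (by norm_num)
      exact_mod_cast this
    apply mul_left_cancel₀ h192
    rw [mul_zero]
    field_simp
    linear_combination 1024 * hφ4 - 64 * hμ
  obtain ⟨Q, hQ⟩ : X ^ 3 ∣ D := by
    rw [X_pow_dvd_iff]
    intro d hd
    interval_cases d
    · exact hD0
    · exact hD1
    · exact hD2
  have hQc : ∀ i, Q.coeff i = D.coeff (i + 3) := by
    intro i
    rw [hQ, coeff_X_pow_mul]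
  have hPhi : ∀ {i : ℕ}, 2 ≤ i →
      ‖(Phi κ (2 * g)).coeff i‖ * ‖((i * (i - 1) : ℕ) : K)‖ ≤ 1 := by
    intro i hi
    have := norm_Phi_coeff_mul_le κ hh hi
    rwa [hκh, hμ1] at this
  have hQ0 : ‖Q.coeff 0‖ * P = 1 := by
    have e1 : ‖(Phi κ (2 * g)).coeff 3‖ * P = 1 := by
      have h6 : ‖(6 : K)‖ = P := by
        have h3 : ‖((3 : ℕ) : K)‖ = 1 := hodd 3 (by norm_num)
        have : (6 : K) = 2 * ((3 : ℕ) : K) := by push_cast; norm_num
        rw [this, norm_mul, h3, mul_one]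
      have := congrArg norm hφ3
      rw [norm_mul, norm_mul, norm_mul, hμ1, one_mul, hodd _ (show ¬ 2 ∣ 2 * g + 1 by omega),
        hodd _ (show ¬ 2 ∣ 2 * g - 1 by omega), h6, mul_one] at this
      exact this
    have e2 : ‖2 * a1 * a2‖ = ‖a1‖ := by
      rw [norm_mul, norm_mul, ← hPdef]
      calc P * ‖a1‖ * ‖a2‖ = ‖a1‖ * (‖a2‖ * P) := by ring
        _ = ‖a1‖ := by rw [ha2n, mul_one]
    have e3 : ‖a1‖ < ‖(Phi κ (2 * g)).coeff 3‖ := by
      have h5 : ‖(Phi κ (2 * g)).coeff 3‖ = ‖a1‖ ^ 2 := by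
        apply mul_right_cancel₀ hP0.ne'
        rw [e1, ha1n]
      rw [h5]
      have h6 : 1 < ‖a1‖ := by
        by_contra hle
        push Not at hle
        have : ‖a1‖ ^ 2 * P < 1 := by
          have h7 : ‖a1‖ ^ 2 ≤ 1 := pow_le_one₀ (norm_nonneg _) hle
          nlinarith [hP0]
        linarith
      rw [pow_two]
      nlinarith
    rw [hQc, zero_add, hDc, hA2c3, sub_eq_add_neg,
      IsUltrametricDist.norm_add_eq_max_of_norm_ne_norm (by rw [norm_neg, e2]; exact e3.ne'),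
      norm_neg, e2, max_eq_left e3.le, e1]
  have hQ0' : ‖Q.coeff 0‖ = P⁻¹ := eq_inv_of_mul_eq_one_left hQ0
  have hQpos : 0 < ‖Q.coeff 0‖ := by rw [hQ0']; positivity
  have hζ : IsPrimitiveRoot (-1 : K) 2 := by
    have : CharP K 0 := CharP.ofCharZero K
    exact IsPrimitiveRoot.neg_one 0 (by norm_num)
  refine ⟨⟨κ, ρ, -1, A, Q, hζ, by rw [hκh, hμ1], hρ0, hr1, ?_, ?_, ?_, ?_, ?_, ?_, ?_⟩⟩
  · rw [← hQ, hD]; ring
  · simp [hA, coeff_one, coeff_X]
  · intro i hi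
    have hc : A.coeff i = if i = 1 then a1 else if i = 2 then a2 else 0 := by
      rw [hA]
      simp only [coeff_add, coeff_C_mul, coeff_one, coeff_X, coeff_X_pow]
      rw [if_neg (show ¬ i = 0 by omega)]
      by_cases h1 : i = 1
      · subst h1; simp
      · by_cases h2 : i = 2
        · subst h2; simp
        · rw [if_neg (show ¬ (1 = i) by omega), if_neg h2, if_neg h1, if_neg h2]; simp
    rw [hc]
    split_ifs with h1 h2
    · subst h1
      rw [pow_one]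
      apply lt_of_pow_lt_pow_left₀ 2 zero_le_one
      rw [one_pow, mul_pow]
      have h9 := hcmp 2 1 (by norm_num)
      rw [pow_one] at h9
      have h10 : 0 < ‖a1‖ ^ 2 := by
        by_contra hneg
        push Not at hneg
        have : ‖a1‖ ^ 2 * P ≤ 0 := mul_nonpos_of_nonpos_of_nonneg hneg hP0.le
        linarith
      calc ‖a1‖ ^ 2 * ‖ρ‖ ^ 2 < ‖a1‖ ^ 2 * P := mul_lt_mul_of_pos_left h9 h10
        _ = 1 := ha1n
    · subst h2
      have h9 := hcmp 2 1 (by norm_num)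
      rw [pow_one] at h9
      have h10 : 0 < ‖a2‖ := by
        by_contra hneg
        push Not at hneg
        have : ‖a2‖ * P ≤ 0 := mul_nonpos_of_nonpos_of_nonneg hneg hP0.le
        linarith
      calc ‖a2‖ * ‖ρ‖ ^ 2 < ‖a2‖ * P := mul_lt_mul_of_pos_left h9 h10
        _ = 1 := ha2n
    · rw [norm_zero, zero_mul]; exact one_pos
  · intro h0
    rw [h0, norm_zero] at hQpos
    exact lt_irrefl _ hQpos
  · intro i hi
    rcases eq_or_ne i 1 with h1 | h1
    · subst h1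
      rw [hQc 1, show 1 + 3 = 4 by norm_num, hD4, norm_zero, zero_mul]
      exact hQpos
    · have hj : 5 ≤ i + 3 := by omega
      have e1 : Q.coeff i = (Phi κ (2 * g)).coeff (i + 3) := by
        rw [hQc, hDc, hA2c5 _ hj, sub_zero]
      have h2 := hPhi (i := i + 3) (by omega)
      have hn0 : (i + 3) * (i + 3 - 1) ≠ 0 := Nat.mul_ne_zero (by omega) (by omega)
      have h3 : ‖(((i + 3) * (i + 3 - 1) : ℕ) : K)‖ =
          P ^ padicValNat 2 ((i + 3) * (i + 3 - 1)) := by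
        have := norm_nat_eq (K := K) (p := 2) hp' hn0
        rw [this]
        norm_num [hPdef]
      have h5 := val_two_mul_pred hj
      set k := padicValNat 2 ((i + 3) * (i + 3 - 1)) with hk
      have h6 : ‖ρ‖ ^ i * P < P ^ k := by
        rcases Nat.eq_zero_or_pos k with hk0 | hkpos
        · rw [hk0, pow_zero]
          have : ‖ρ‖ ^ i ≤ 1 := pow_le_one₀ hr0.le hr1.le
          nlinarith
        · obtain ⟨t, ht⟩ : ∃ t, k = t + 1 := ⟨k - 1, by omega⟩
          rw [ht, pow_succ]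
          exact mul_lt_mul_of_pos_right (hcmp i t (by omega)) hP0
      rw [h3] at h2
      rw [e1, hQ0']
      rcases eq_or_ne ((Phi κ (2 * g)).coeff (i + 3)) 0 with h0 | h0
      · rw [h0, norm_zero, zero_mul]; positivity
      · rw [← one_div, lt_div_iff₀ hP0]
        calc ‖(Phi κ (2 * g)).coeff (i + 3)‖ * ‖ρ‖ ^ i * P
            = ‖(Phi κ (2 * g)).coeff (i + 3)‖ * (‖ρ‖ ^ i * P) := by ring
          _ < ‖(Phi κ (2 * g)).coeff (i + 3)‖ * P ^ k :=
              mul_lt_mul_of_pos_left h6 (norm_pos_iff.2 h0)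
          _ ≤ 1 := h2
  · have e : ‖(-1 : K) - 1‖ = P := by
      have : (-1 : K) - 1 = -2 := by norm_num
      rw [this, norm_neg]
    rw [e, hQ0', inv_mul_eq_div, lt_div_iff₀ hP0, ← pow_succ]
    apply lt_of_pow_lt_pow_left₀ 4 (by positivity)
    rw [← pow_mul ‖ρ‖, mul_comm 3 4, pow_mul, hρn, ← pow_mul, ← pow_mul]
    exact pow_lt_pow_right_of_lt_one₀ hP0 hp (by norm_num)
  · intro i hi
    have h1 := norm_kchoose_mul_le κ hh hi
    rw [hκh, hμ1] at h1
    have hi0 : i ≠ 0 := by omega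
    have h3 : ‖(i : K)‖ = P ^ padicValNat 2 i := by
      have := norm_nat_eq (K := K) (p := 2) hp' hi0
      rw [this]
      norm_num [hPdef]
    have h2 : ‖ρ‖ ^ i < ‖(i : K)‖ := by
      rw [h3]
      exact hcmp i _ (val_two_lt hi0)
    rcases eq_or_ne (κ * ((2 * g).choose i : K)) 0 with h0 | h0
    · rw [h0, norm_zero, zero_mul]; exact one_pos
    · calc ‖κ * ((2 * g).choose i : K)‖ * ‖ρ‖ ^ i
          < ‖κ * ((2 * g).choose i : K)‖ * ‖(i : K)‖ :=
            mul_lt_mul_of_pos_left h2 (norm_pos_iff.2 h0)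
        _ ≤ 1 := h1

end P025H507
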